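import Vale.Agent.P184.RH.Height

namespace Vale.Agent.P184.HH

open Filter Topology

section ultra

/-- A bounded real sequence converges along any ultrafilter. -/
lemma exists_ultra_lim (U : Ultrafilter ℕ) (s : ℕ → ℝ) (M : ℝ) (hs : ∀ n, |s n| ≤ M) :
    ∃ L : ℝ, Tendsto s U (𝓝 L) := by
  have hc : IsCompact (Set.Icc (-M) M) := isCompact_Icc
  have hle : ((U.map s : Ultrafilter ℝ) : Filter ℝ) ≤ 𝓟 (Set.Icc (-M) M) := by
    rw [le_principal_iff]
    refine Filter.mem_map.mpr (Filter.univ_mem' ?_)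
    intro n
    exact abs_le.mp (hs n)
  obtain ⟨L, _, hL⟩ := hc.ultrafilter_le_nhds (U.map s) hle
  exact ⟨L, hL⟩

end ultra

section bolic

variable {X : Type*} [PseudoMetricSpace X] {G : Type*} [Group G] [MulAction G X]

/-- Elements of positive translation length for an isometric action on a space with the
asymptotic four point property (strong B1 of Lafforgue). -/
theorem bolic_criterion (hiso : ∀ (a : G) (x y : X), dist (a • x) (a • y) = dist x y)
    (hB : ∀ r δ : ℝ, 0 < δ → ∃ R : ℝ, ∀ x₁ x₂ y₁ y₂ : X, dist x₁ x₂ + dist y₁ y₂ ≤ r →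
      R ≤ dist x₁ y₁ + dist x₂ y₂ →
      dist x₁ y₂ + dist x₂ y₁ ≤ dist x₁ y₁ + dist x₂ y₂ + δ)
    (g : G) (x₀ : X) (ε : ℝ) (hε : 0 < ε) (hlin : ∀ n : ℕ, ε * n ≤ dist x₀ (g ^ n • x₀)) :
    HasHeight g := by
  classical
  let a : ℕ → ℝ := fun n => dist x₀ (g ^ n • x₀)
  -- increments
  have hinc : ∀ n, a (n + 1) ≤ a n + a 1 := by
    intro n
    have h1 : dist (g ^ n • x₀) (g ^ (n + 1) • x₀) = a 1 := by
      have : g ^ (n + 1) • x₀ = g ^ n • (g ^ 1 • x₀) := by rw [← mul_smul, ← pow_add]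
      rw [this, hiso]
    have := dist_triangle x₀ (g ^ n • x₀) (g ^ (n + 1) • x₀)
    simp only [a]
    linarith
  -- the set of good indices is frequent
  let S : Set ℕ := {n | ε / 2 ≤ a (n + 1) - a n}
  have hfreq : ∃ᶠ n in atTop, n ∈ S := by
    rw [Filter.frequently_atTop]
    intro N
    by_contra hcon
    push Not at hcon
    have hsmall : ∀ k : ℕ, a (N + k) ≤ a N + k * (ε / 2) := by
      intro k
      induction k with
      | zero => simp
      | succ k ih =>
        have h1 : ¬ (ε / 2 ≤ a (N + k + 1) - a (N + k)) := hcon (N + k) (Nat.le_add_right _ _)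
        have h2 : a (N + (k + 1)) = a (N + k + 1) := by rw [add_assoc]
        rw [h2]
        push_cast
        push Not at h1
        linarith
    obtain ⟨k, hk⟩ := exists_nat_gt ((a N) / (ε / 2))
    have h3 := hsmall k
    have h4 := hlin (N + k)
    have h5 : a N < k * (ε / 2) := by
      rwa [div_lt_iff₀ (by positivity)] at hk
    have h6 : (0 : ℝ) ≤ N := Nat.cast_nonneg N
    have h7 : ε * ((N + k : ℕ) : ℝ) = ε * N + ε * k := by push_cast; ring
    have h8 : a (N + k) = dist x₀ (g ^ (N + k) • x₀) := rfl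
    have h9 : 0 ≤ ε * N := by positivity
    nlinarith
  let S₁ : Set ℕ := {n | ε / 2 ≤ a n - dist (g • x₀) (g ^ n • x₀)}
  have hfreq₁ : ∃ᶠ n in atTop, n ∈ S₁ := by
    rw [Filter.frequently_atTop] at hfreq ⊢
    intro N
    obtain ⟨m, hm, hmS⟩ := hfreq N
    refine ⟨m + 1, by omega, ?_⟩
    have h1 : dist (g • x₀) (g ^ (m + 1) • x₀) = a m := by
      have : g ^ (m + 1) • x₀ = g • (g ^ m • x₀) := by rw [← mul_smul, ← pow_succ']
      rw [this, hiso]
    change ε / 2 ≤ a (m + 1) - dist (g • x₀) (g ^ (m + 1) • x₀)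
    rw [h1]
    exact hmS
  have hne : NeBot (atTop ⊓ 𝓟 S₁) := by
    rw [← Filter.frequently_mem_iff_neBot]
    exact hfreq₁
  let U : Ultrafilter ℕ := Ultrafilter.of (atTop ⊓ 𝓟 S₁)
  have hU : (U : Filter ℕ) ≤ atTop ⊓ 𝓟 S₁ := Ultrafilter.of_le _
  have hUtop : (U : Filter ℕ) ≤ atTop := hU.trans inf_le_left
  have hUS : S₁ ∈ (U : Filter ℕ) := by
    have : (U : Filter ℕ) ≤ 𝓟 S₁ := hU.trans inf_le_right
    exact le_principal_iff.mp this
  let s : X → ℕ → ℝ := fun y n => dist y (g ^ n • x₀) - a n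
  have hsb : ∀ y n, |s y n| ≤ dist y x₀ := by
    intro y n
    simp only [s, a]
    exact abs_dist_sub_le y x₀ (g ^ n • x₀)
  have hex : ∀ y, ∃ L : ℝ, Tendsto (s y) U (𝓝 L) := fun y =>
    exists_ultra_lim U (s y) (dist y x₀) (hsb y)
  let F : X → ℝ := fun y => Classical.choose (hex y)
  have hF : ∀ y, Tendsto (s y) U (𝓝 (F y)) := fun y => Classical.choose_spec (hex y)
  -- Lipschitz
  have hLip : ∀ y y', |F y - F y'| ≤ dist y y' := by
    intro y y'
    have ht : Tendsto (fun n => |s y n - s y' n|) U (𝓝 |F y - F y'|) :=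
      ((hF y).sub (hF y')).abs
    refine le_of_tendsto ht (Filter.Eventually.of_forall ?_)
    intro n
    simp only [s]
    have := abs_dist_sub_le y y' (g ^ n • x₀)
    calc |dist y (g ^ n • x₀) - a n - (dist y' (g ^ n • x₀) - a n)|
        = |dist y (g ^ n • x₀) - dist y' (g ^ n • x₀)| := by congr 1; ring
      _ ≤ dist y y' := this
  -- distances go to infinity
  have hbig : ∀ (y w : X) (R : ℝ), ∀ᶠ n : ℕ in atTop, R ≤ dist y (g ^ n • w) := by
    intro y w R
    obtain ⟨N, hN⟩ := exists_nat_gt ((R + dist y x₀ + dist x₀ w) / ε)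
    filter_upwards [Filter.eventually_ge_atTop N] with n hn
    have h1 : (R + dist y x₀ + dist x₀ w) < ε * n := by
      have h2 : (R + dist y x₀ + dist x₀ w) / ε < n := lt_of_lt_of_le hN (by exact_mod_cast hn)
      rw [div_lt_iff₀ hε] at h2
      linarith
    have h3 := hlin n
    have h4 : dist (g ^ n • x₀) (g ^ n • w) = dist x₀ w := hiso _ _ _
    have h5 := dist_triangle x₀ y (g ^ n • x₀)
    have h6 := dist_triangle y (g ^ n • w) (g ^ n • x₀)
    rw [dist_comm (g ^ n • w) (g ^ n • x₀), h4] at h6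
    rw [dist_comm x₀ y] at h5
    linarith
  -- key: invariance up to constants under the centraliser
  have hkey : ∀ z : G, z * g = g * z → ∀ y y' : X, F (z • y) - F y = F (z • y') - F y' := by
    intro z hz y y'
    have hzn : ∀ n : ℕ, z⁻¹ * g ^ n = g ^ n * z⁻¹ := by
      intro n
      have hc : Commute z g := hz
      exact (hc.inv_left.pow_right n)
    let w : X := z⁻¹ • x₀
    have hrew : ∀ (v : X) (n : ℕ), dist (z • v) (g ^ n • x₀) = dist v (g ^ n • w) := by
      intro v n
      have h1 : g ^ n • w = z⁻¹ • (g ^ n • x₀) := by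
        simp only [w]
        rw [← mul_smul, ← mul_smul, hzn n]
      rw [h1]
      have h2 := hiso z⁻¹ (z • v) (g ^ n • x₀)
      rw [inv_smul_smul] at h2
      exact h2.symm
    have ht0 : Tendsto (fun n => (s (z • y) n - s y n) - (s (z • y') n - s y' n)) atTop (𝓝 0) := by
      rw [Metric.tendsto_atTop]
      intro δ hδ
      obtain ⟨R, hR⟩ := hB (dist y y' + dist x₀ w) (δ / 2) (by positivity)
      have e1 := hbig y x₀ R
      have e2 := hbig y w R
      obtain ⟨N, hN⟩ := Filter.eventually_atTop.mp (e1.and e2)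
      refine ⟨N, fun n hn => ?_⟩
      obtain ⟨h1, h2⟩ := hN n hn
      have hpq : dist (g ^ n • x₀) (g ^ n • w) = dist x₀ w := hiso _ _ _
      have hA := hR y y' (g ^ n • x₀) (g ^ n • w) (by rw [hpq])
        (by have := dist_nonneg (x := y') (y := g ^ n • w); linarith)
      have hB' := hR y y' (g ^ n • w) (g ^ n • x₀) (by rw [dist_comm (g ^ n • w), hpq])
        (by have := dist_nonneg (x := y') (y := g ^ n • x₀); linarith)
      rw [Real.dist_eq, sub_zero]
      simp only [s]
      rw [hrew y n, hrew y' n]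
      rw [abs_lt]
      constructor <;> linarith
    have ht1 : Tendsto (fun n => (s (z • y) n - s y n) - (s (z • y') n - s y' n)) U (𝓝 0) :=
      ht0.mono_left hUtop
    have ht2 : Tendsto (fun n => (s (z • y) n - s y n) - (s (z • y') n - s y' n)) U
        (𝓝 ((F (z • y) - F y) - (F (z • y') - F y'))) :=
      ((hF _).sub (hF _)).sub ((hF _).sub (hF _))
    have := tendsto_nhds_unique ht2 ht1
    linarith
  -- drift
  have hF0 : F x₀ = 0 := by
    have h1 : Tendsto (s x₀) U (𝓝 0) := by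
      have : s x₀ = fun _ => (0 : ℝ) := by
        funext n
        simp [s, a]
      rw [this]
      exact tendsto_const_nhds
    exact tendsto_nhds_unique (hF x₀) h1
  have hdrift : F (g • x₀) ≤ -(ε / 2) := by
    refine le_of_tendsto (hF (g • x₀)) ?_
    filter_upwards [hUS] with n hn
    have h1 : ε / 2 ≤ a n - dist (g • x₀) (g ^ n • x₀) := hn
    simp only [s]
    linarith
  let h : G → ℝ := fun u => F (u⁻¹ • x₀)
  refine ⟨h, ?_, ?_, ?_⟩
  · intro x
    refine ⟨dist (x⁻¹ • x₀) x₀, fun u => ?_⟩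
    simp only [h]
    have h1 : (x * u)⁻¹ • x₀ = u⁻¹ • (x⁻¹ • x₀) := by rw [mul_inv_rev, mul_smul]
    rw [h1]
    refine (hLip _ _).trans ?_
    rw [hiso]
  · intro z hz u v
    simp only [h]
    have hz' : z⁻¹ * g = g * z⁻¹ := by
      have hc : Commute z g := hz
      exact hc.inv_left
    have h1 : ∀ t : G, (t * z)⁻¹ • x₀ = z⁻¹ • (t⁻¹ • x₀) := by
      intro t
      rw [mul_inv_rev, mul_smul]
    rw [h1 u, h1 v]
    exact hkey z⁻¹ hz' _ _
  · simp only [h]
    have h1 := hkey g rfl (g⁻¹ • x₀) x₀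
    rw [smul_inv_smul] at h1
    rw [inv_one, one_smul]
    intro hcon
    rw [hcon] at h1
    linarith

end bolic

end Vale.Agent.P184.HH
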