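import Vale.Agent.P184.HH.Linear
import Vale.Agent.P184.AbvTrans
import Vale.Agent.P184.CharP

namespace Vale.Agent.P184.HH

open scoped BigOperators

variable {G : Type*} [Group G] {q : ℕ}

/-- An eigenvalue which is transcendental over some subfield. -/
theorem transcendental_criterion {k L V : Type*} [Field k] [Field L] [Algebra k L] [AddCommGroup V] [Module L V]
    [FiniteDimensional L V] (ρ : Representation L G V) (g : G) (μ : L)
    (hμ : Module.End.HasEigenvalue (ρ g) μ) (ht : Transcendental k μ) :
    HasHeight g := by
  obtain ⟨v, hv⟩ := exists_abv_of_transcendental μ ht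
  exact linear_criterion v ρ g μ hμ hv

/-- The ring homomorphism from matrices over `K` to endomorphisms over an extension field. -/
noncomputable def matEnd (K L : Type*) [Field K] [Field L] [Algebra K L] (n : ℕ) :
    Matrix (Fin n) (Fin n) K →+* Module.End L (Fin n → L) :=
  (Matrix.toLinAlgEquiv' : Matrix (Fin n) (Fin n) L ≃ₐ[L] _).toRingEquiv.toRingHom.comp
    (algebraMap K L).mapMatrix

lemma matEnd_injective (K L : Type*) [Field K] [Field L] [Algebra K L] (n : ℕ) :
    Function.Injective (matEnd K L n) := by
  intro A B h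
  have h1 : (algebraMap K L).mapMatrix A = (algebraMap K L).mapMatrix B :=
    (Matrix.toLinAlgEquiv' : Matrix (Fin n) (Fin n) L ≃ₐ[L] _).injective h
  ext i j
  have h2 := congrFun (congrFun h1 i) j
  exact (algebraMap K L).injective h2

/-- Linear groups in positive characteristic: the coefficient vanishes at every element whose
image has infinite order. -/
theorem charP_criterion (p : ℕ) [Fact p.Prime]
    {K : Type*} [Field K] [CharP K p] {n : ℕ} (ρ : G →* GL (Fin n) K) (g : G)
    (hg : ¬ IsOfFinOrder (ρ g)) : HasHeight g := by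
  classical
  let L := AlgebraicClosure K
  have : CharP L p := charP_of_injective_algebraMap (algebraMap K L).injective p
  let _ : Algebra (ZMod p) L := ZMod.algebra L p
  let Φ := matEnd K L n
  let ρL : Representation L G (Fin n → L) :=
    (Φ : Matrix (Fin n) (Fin n) K →* Module.End L (Fin n → L)).comp
      ((Units.coeHom (Matrix (Fin n) (Fin n) K)).comp ρ)
  have hρL : ∀ x, ρL x = Φ ((ρ x : GL (Fin n) K) : Matrix (Fin n) (Fin n) K) := fun _ => rfl
  by_contra hne
  apply hg
  have hall : ∀ μ : L, Module.End.HasEigenvalue (ρL g) μ → ∃ m : ℕ, 0 < m ∧ μ ^ m = 1 := by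
    intro μ hμ
    have h0 : μ ≠ 0 := by
      intro h0
      obtain ⟨w, hw⟩ := hμ.exists_hasEigenvector
      have h1 : ρL g w = 0 := by
        rw [hw.apply_eq_smul, h0, zero_smul]
      have h2 : ρL g⁻¹ (ρL g w) = w := by
        have : (ρL g⁻¹ * ρL g) w = w := by
          rw [← map_mul, inv_mul_cancel, map_one]
          rfl
        exact this
      rw [h1, map_zero] at h2
      exact hw.2 h2.symm
    apply pow_eq_one_of_isAlgebraic p μ h0
    by_contra htr
    exact hne (transcendental_criterion ρL g μ hμ htr)
  obtain ⟨N, hN0, hN⟩ := pow_eq_one_of_eigenvalues p (ρL g) hall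
  rw [isOfFinOrder_iff_pow_eq_one]
  refine ⟨N, hN0, ?_⟩
  apply Units.ext
  apply matEnd_injective K L n
  rw [Units.val_pow_eq_pow_val, map_pow, Units.val_one, map_one]
  exact hN

end Vale.Agent.P184.HH
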