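import Vale.Agent.P184.RH.DefsAll
import Vale.Agent.P184.RH.Height
import Vale.Agent.P184.HH.FreeProdVanish
import Vale.Agent.P184.HH.RFRS
import Vale.Agent.P184.HH.LinearCharP
import Vale.Agent.P184.FreeProd

namespace Vale.Agent.P184

open Monoid CoprodI

universe u v

theorem HasHeight.of_isConj {G : Type*} [Group G] {a b : G} (h : IsConj a b) (H : HasHeight a) :
    HasHeight b := by
  obtain ⟨c, hc⟩ := isConj_iff.mp h
  rw [← hc]
  exact H.conj c

lemma isOfFinOrder_of_isConj {G : Type*} [Group G] {a b : G} (h : IsConj a b)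
    (ha : IsOfFinOrder a) : IsOfFinOrder b := by
  obtain ⟨c, hc⟩ := isConj_iff.mp h
  obtain ⟨n, hn, hn1⟩ := (isOfFinOrder_iff_pow_eq_one).mp ha
  rw [isOfFinOrder_iff_pow_eq_one]
  refine ⟨n, hn, ?_⟩
  rw [← hc, conj_pow, hn1]
  group

theorem AllHeight.van {G : Type*} [Group G] (h : AllHeight G) (g : G) (hg : ¬ IsOfFinOrder g) :
    Van g := (h g hg).van

theorem AllHeight.Q1 {G : Type*} [Group G] (h : AllHeight G) (hfin : FinTor G) : Q1 G := by
  classical
  intro q e he
  have hfin' : {C : ConjClasses G | ∀ g ∈ C.carrier, IsOfFinOrder g}.Finite := hfin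
  refine ⟨hfin'.toFinset, ?_, ?_⟩
  · intro C hC
    exact (Set.Finite.mem_toFinset hfin').mp hC
  · intro C hC
    obtain ⟨g, rfl⟩ := ConjClasses.exists_rep C
    by_cases hg : IsOfFinOrder g
    · exfalso
      apply hC
      rw [Set.Finite.mem_toFinset]
      intro x hx
      rw [ConjClasses.mem_carrier_iff_mk_eq, ConjClasses.mk_eq_mk_iff_isConj] at hx
      exact isOfFinOrder_of_isConj hx.symm hg
    · exact h.van g hg q e he

theorem AllHeight.of_residual {G : Type u} [Group G]
    (h : ∀ g : G, ¬ IsOfFinOrder g → ∃ (H : Type v) (_ : Group H) (π : G →* H),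
      AllHeight H ∧ ¬ IsOfFinOrder (π g)) : AllHeight G := by
  intro g hg
  obtain ⟨H, _, π, hH, hπ⟩ := h g hg
  exact HasHeight.comap π (hH _ hπ)

theorem AllHeight.of_mulEquiv {H : Type v} {G : Type u} [Group H] [Group G] (Φ : H ≃* G)
    (h : AllHeight H) : AllHeight G := by
  intro g hg
  refine HasHeight.comap Φ.symm.toMonoidHom (h _ ?_)
  intro hfo
  apply hg
  have := Φ.toMonoidHom.isOfFinOrder hfo
  simpa using this

theorem allHeight_coprodI {ι : Type*} {M : ι → Type*} [∀ i, Group (M i)]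
    (h : ∀ i, AllHeight (M i)) : AllHeight (CoprodI M) := by
  intro g hg
  have hg1 : g ≠ 1 := by
    rintro rfl
    exact hg IsOfFinOrder.one
  rcases conj_classification g hg1 with ⟨i, m, hc⟩ | ⟨i, j, hij, w, hc⟩
  · have hm : ¬ IsOfFinOrder m := by
      intro hfo
      apply hg
      exact isOfFinOrder_of_isConj hc.symm ((of : M i →* CoprodI M).isOfFinOrder hfo)
    have h1 : HasHeight (of m : CoprodI M) := by
      refine HasHeight.comap (retr i) ?_
      rw [retr_of_same]
      exact h i m hm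
    exact h1.of_isConj hc.symm
  · exact (HH.coprod_hyperbolic_vanish hij w).of_isConj hc.symm

theorem allHeight_of_virtually_abelian {G : Type*} [Group G] (A : Subgroup G) [A.FiniteIndex]
    (hab : ∀ a ∈ A, ∀ b ∈ A, a * b = b * a) : AllHeight G := by
  intro g hg
  exact HH.virtually_abelian_criterion (MonoidHom.id G) A hab g hg

theorem allHeight_of_virtually_rfrs {G : Type*} [Group G] (H : Subgroup G) [H.FiniteIndex]
    (hR : IsRFRS H) : AllHeight G := fun g hg => HH.virtually_rfrs H hR g hg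

theorem allHeight_of_linear_charP {G : Type*} [Group G] (p : ℕ) [Fact p.Prime] {K : Type*}
    [Field K] [CharP K p] {n : ℕ} (ρ : G →* GL (Fin n) K) (hρ : Function.Injective ρ) :
    AllHeight G := by
  intro g hg
  refine HH.charP_criterion p ρ g ?_
  intro hfo
  apply hg
  obtain ⟨k, hk, hk1⟩ := (isOfFinOrder_iff_pow_eq_one).mp hfo
  rw [isOfFinOrder_iff_pow_eq_one]
  refine ⟨k, hk, hρ ?_⟩
  rw [map_pow, hk1, map_one]

end Vale.Agent.P184
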