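import Vale.Agent.P184.Criteria
import Vale.Agent.P184.RH.Height
import Vale.Agent.P184.McShane
import Vale.Agent.P184.DefsAmenable

namespace Vale.Agent.P184.HH

open scoped BigOperators

variable {G : Type*} [Group G] {q : ℕ}

lemma mem_cent_iff (g z : G) : z ∈ Subgroup.centralizer ({g} : Set G) ↔ z * g = g * z := by
  rw [Subgroup.mem_centralizer_iff]
  constructor
  · intro h
    exact (h g rfl).symm
  · intro h y hy
    rw [Set.mem_singleton_iff.mp hy]
    exact h.symm

/-- A homomorphism on the centralizer dominated by a length function. -/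
theorem centralizer_criterion (l : G → ℝ)
    (hl : ∀ x y, l (x * y) ≤ l x + l y) (g : G) (φ : G → ℝ)
    (hadd : ∀ z w, z * g = g * z → w * g = g * w → φ (z * w) = φ z + φ w)
    (hle : ∀ z, z * g = g * z → φ z ≤ l z) (hg : φ g ≠ 0) : HasHeight g := by
  let L := Subgroup.centralizer ({g} : Set G)
  let φ' : L → ℝ := fun a => φ a
  have hφ' : ∀ a b : L, φ' (a * b) = φ' a + φ' b := fun a b =>
    hadd a b ((mem_cent_iff g a).mp a.2) ((mem_cent_iff g b).mp b.2)
  have hle' : ∀ a : L, φ' a ≤ l (L.subtype a) := fun a => hle a ((mem_cent_iff g a).mp a.2)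
  refine ⟨(msh l L.subtype φ'), ?_, ?_, ?_⟩
  · intro x
    exact ⟨_, fun u => msh_abs hl hφ' hle' x u⟩
  · intro z hz u v
    have h1 := msh_right hl hφ' hle' u ⟨z, (mem_cent_iff g z).mpr hz⟩
    have h2 := msh_right hl hφ' hle' v ⟨z, (mem_cent_iff g z).mpr hz⟩
    simp only [Subgroup.subtype_apply] at h1 h2
    rw [h1, h2]
    ring
  · have h1 := msh_right hl hφ' hle' 1 ⟨g, (mem_cent_iff g g).mpr rfl⟩
    simp only [Subgroup.subtype_apply, one_mul] at h1
    rw [h1]
    intro h
    apply hg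
    have : φ' ⟨g, (mem_cent_iff g g).mpr rfl⟩ = 0 := by linarith
    exact this

section mean

variable {Z : Type*} {μ : (Z → ℝ) → ℝ}

lemma BddFun.add {f k : Z → ℝ} (hf : BddFun f) (hk : BddFun k) : BddFun (f + k) := by
  obtain ⟨A, hA⟩ := hf
  obtain ⟨B, hB⟩ := hk
  exact ⟨A + B, fun z => (abs_add_le _ _).trans (add_le_add (hA z) (hB z))⟩

lemma BddFun.smul {f : Z → ℝ} (c : ℝ) (hf : BddFun f) : BddFun (c • f) := by
  obtain ⟨A, hA⟩ := hf
  refine ⟨|c| * A, fun z => ?_⟩
  simp only [Pi.smul_apply, smul_eq_mul, abs_mul]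
  exact mul_le_mul_of_nonneg_left (hA z) (abs_nonneg _)

lemma bddFun_const (c : ℝ) : BddFun (fun _ : Z => c) := ⟨|c|, fun _ => le_rfl⟩

lemma mean_const (hsm : ∀ (c : ℝ) f, BddFun f → μ (c • f) = c * μ f) (h1 : μ (fun _ => 1) = 1)
    (c : ℝ) : μ (fun _ => c) = c := by
  have := hsm c (fun _ => 1) (bddFun_const 1)
  rw [h1, mul_one] at this
  have h2 : (fun _ : Z => c) = c • (fun _ : Z => (1 : ℝ)) := by
    funext z
    simp
  rw [h2, this]

lemma mean_sub (hadd : ∀ f k, BddFun f → BddFun k → μ (f + k) = μ f + μ k)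
    (hsm : ∀ (c : ℝ) f, BddFun f → μ (c • f) = c * μ f) {f k : Z → ℝ} (hf : BddFun f)
    (hk : BddFun k) : μ (fun z => f z - k z) = μ f - μ k := by
  have h1 := hadd f ((-1 : ℝ) • k) hf (hk.smul _)
  rw [hsm _ _ hk] at h1
  have h2 : (fun z => f z - k z) = f + (-1 : ℝ) • k := by
    funext z
    simp [sub_eq_add_neg]
  rw [h2, h1]
  ring

lemma mean_abs_le (hadd : ∀ f k, BddFun f → BddFun k → μ (f + k) = μ f + μ k)
    (hsm : ∀ (c : ℝ) f, BddFun f → μ (c • f) = c * μ f)
    (hpos : ∀ f, BddFun f → (∀ z, 0 ≤ f z) → 0 ≤ μ f) (h1 : μ (fun _ => 1) = 1)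
    {f : Z → ℝ} {K : ℝ} (hf : ∀ z, |f z| ≤ K) : |μ f| ≤ K := by
  have hbf : BddFun f := ⟨K, hf⟩
  have hc := mean_const hsm h1 K
  have h2 := mean_sub hadd hsm (bddFun_const K) hbf
  have h3 := hpos (fun z => K - f z) ((bddFun_const K).add (hbf.smul (-1)) |> fun h => by
    obtain ⟨B, hB⟩ := h
    exact ⟨B, fun z => by simpa [sub_eq_add_neg] using hB z⟩)
    (fun z => by have := (abs_le.mp (hf z)).2; linarith)
  have h4 := hadd f (fun _ => K) hbf (bddFun_const K)
  have h5 := hpos (f + fun _ => K) (hbf.add (bddFun_const K))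
    (fun z => by have := (abs_le.mp (hf z)).1; simp only [Pi.add_apply]; linarith)
  rw [abs_le]
  constructor <;> linarith

end mean

/-- Averaging a height function over the centralizer. -/
theorem averaging_criterion (g : G) (h0 : G → ℝ)
    (ε : ℝ) (hε : ε ≠ 0) (h0abs : ∀ x, ∃ M, ∀ u, |h0 (x * u) - h0 u| ≤ M)
    (h0g : ∀ u, h0 (u * g) = h0 u + ε)
    (μ : (Subgroup.centralizer ({g} : Set G) → ℝ) → ℝ)
    (hadd : ∀ f k, BddFun f → BddFun k → μ (f + k) = μ f + μ k)
    (hsm : ∀ (c : ℝ) f, BddFun f → μ (c • f) = c * μ f)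
    (hpos : ∀ f, BddFun f → (∀ z, 0 ≤ f z) → 0 ≤ μ f) (hone : μ (fun _ => 1) = 1)
    (hinv : ∀ (u : G) (w : Subgroup.centralizer ({g} : Set G)),
      μ (fun z => h0 (u * ((w * z : Subgroup.centralizer ({g} : Set G)) : G)) -
        h0 ((w * z : Subgroup.centralizer ({g} : Set G)) : G)) =
      μ (fun z => h0 (u * (z : G)) - h0 (z : G))) :
    HasHeight g := by
  choose M hM using h0abs
  let Zg := Subgroup.centralizer ({g} : Set G)
  let F : G → Zg → ℝ := fun u z => h0 (u * z) - h0 z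
  have hF : ∀ u, BddFun (F u) := fun u => ⟨_, fun z => hM u z⟩
  refine ⟨(fun u => μ (F u)), ?_, ?_, ?_⟩
  · intro x
    refine ⟨M x, fun u => ?_⟩
    rw [← mean_sub hadd hsm (hF _) (hF _)]
    refine mean_abs_le hadd hsm hpos hone (fun z => ?_)
    have := hM x (u * z)
    simp only [F]
    rw [← mul_assoc] at this
    have e1 : h0 (x * u * ↑z) - h0 ↑z - (h0 (u * ↑z) - h0 ↑z) = h0 (x * u * ↑z) - h0 (u * ↑z) := by
      ring
    rw [e1]
    exact this
  · intro w hw u v
    let w' : Zg := ⟨w, (mem_cent_iff g w).mpr hw⟩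
    have hshift : ∀ u, μ (F (u * w)) = μ (F u) + μ (F w) := by
      intro u
      have h1 : F (u * w) = (fun z => F u (w' * z)) + F w := by
        funext z
        simp only [F, Pi.add_apply, w', Subgroup.coe_mul, mul_assoc]
        ring
      have hb1 : BddFun (fun z => F u (w' * z)) := by
        obtain ⟨K, hK⟩ := hF u
        exact ⟨K, fun z => hK _⟩
      rw [h1, hadd _ _ hb1 (hF w)]
      congr 1
      exact hinv u w'
    simp only [hshift]
    ring
  · have h1 : F 1 = fun _ => 0 := by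
      funext z
      simp [F]
    have h2 : F g = fun _ => ε := by
      funext z
      have hz : (z : G) * g = g * z := (mem_cent_iff g z).mp z.2
      simp only [F]
      rw [← hz, h0g]
      ring
    show μ (F g) ≠ μ (F 1)
    rw [h1, h2, mean_const hsm hone, mean_const hsm hone]
    exact hε

/-- Undistorted elements with amenable centralizer. -/
theorem amenable_centralizer_criterion (l : G → ℝ)
    (hl : ∀ x y, l (x * y) ≤ l x + l y) (g : G) (ε : ℝ) (hε : 0 < ε)
    (hund : ∀ n : ℕ, ε * n ≤ l (g ^ n))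
    (ham : Amenable (Subgroup.centralizer ({g} : Set G))) : HasHeight g := by
  obtain ⟨μ, hadd, hsm, hpos, hone, hinv⟩ := ham
  let l' : G → ℝ := fun x => max (l x) 0
  have hl' : ∀ x y, l' (x * y) ≤ l' x + l' y := by
    intro x y
    refine max_le ?_ (add_nonneg (le_max_right _ _) (le_max_right _ _))
    exact (hl x y).trans (add_le_add (le_max_left _ _) (le_max_left _ _))
  let i : Multiplicative ℤ →* G := zpowersHom G g
  let φ : Multiplicative ℤ → ℝ := fun a => ε * (Multiplicative.toAdd a : ℤ)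
  have hφ : ∀ a b, φ (a * b) = φ a + φ b := by
    intro a b
    simp only [φ, toAdd_mul, Int.cast_add]
    ring
  have hle : ∀ a, φ a ≤ l' (i a) := by
    intro a
    have ha : i a = g ^ (Multiplicative.toAdd a : ℤ) := rfl
    simp only [φ, ha]
    generalize (Multiplicative.toAdd a : ℤ) = n
    rcases le_or_gt 0 n with hn | hn
    · obtain ⟨k, rfl⟩ := Int.eq_ofNat_of_zero_le hn
      have := hund k
      simp only [Int.cast_natCast, zpow_natCast]
      exact this.trans (le_max_left _ _)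
    · refine le_trans ?_ (le_max_right _ _)
      have : (n : ℝ) < 0 := by exact_mod_cast hn
      nlinarith
  let h0 : G → ℝ := msh l' i φ
  have h0abs : ∀ x u, |h0 (x * u) - h0 u| ≤ max (l' x) (l' x⁻¹) := msh_abs hl' hφ hle
  have h0g : ∀ u, h0 (u * g) = h0 u + ε := by
    intro u
    have := msh_right hl' hφ hle u (Multiplicative.ofAdd 1)
    simpa [i, φ] using this
  refine averaging_criterion g h0 ε hε.ne' (fun x => ⟨_, h0abs x⟩) h0g μ hadd hsm hpos hone ?_
  intro u w
  exact hinv (fun z => h0 (u * (z : G)) - h0 (z : G)) ⟨_, fun z => h0abs u z⟩ w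

end Vale.Agent.P184.HH
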