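import Vale.Agent.P184.HH.Criteria

namespace Vale.Agent.P184.HH

open scoped BigOperators

variable {G : Type*} [Group G] {q : ℕ}

/-- Elements a power of which is detected by a real character of a finite index subgroup. -/
theorem finite_index_criterion (H : Subgroup G)
    [H.FiniteIndex] (ψ : H →* Multiplicative ℝ) (g : G) (m : ℕ) (hm : 0 < m) (hgm : g ^ m ∈ H)
    (hg : ψ ⟨g ^ m, hgm⟩ ≠ 1) :
    HasHeight g := by
  classical
  let ψ' : G → ℝ := fun y => if hy : y ∈ H then Multiplicative.toAdd (ψ ⟨y, hy⟩) else 0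
  have hψadd : ∀ y y', y ∈ H → y' ∈ H → ψ' (y * y') = ψ' y + ψ' y' := by
    intro y y' hy hy'
    simp only [ψ', dif_pos hy, dif_pos hy', dif_pos (H.mul_mem hy hy')]
    have : (⟨y * y', H.mul_mem hy hy'⟩ : H) = ⟨y, hy⟩ * ⟨y', hy'⟩ := rfl
    rw [this, map_mul, toAdd_mul]
  let r : G ⧸ H → G := Quotient.out
  have hr : ∀ u : G, (r (u : G ⧸ H))⁻¹ * u ∈ H := fun u =>
    QuotientGroup.eq.mp (QuotientGroup.out_eq' (u : G ⧸ H))
  let hh : G → ℝ := fun u => ψ' ((r (u : G ⧸ H))⁻¹ * u)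
  have hR : ∀ u k, k ∈ H → hh (u * k) = hh u + ψ' k := by
    intro u k hk
    have h1 : ((u * k : G) : G ⧸ H) = (u : G ⧸ H) := QuotientGroup.mk_mul_of_mem u hk
    simp only [hh, h1]
    rw [← mul_assoc, hψadd _ _ (hr u) hk]
  have : Fintype (G ⧸ H) := Subgroup.fintypeQuotientOfFiniteIndex
  let D : G → G ⧸ H → ℝ := fun x s => ψ' ((r (x • s))⁻¹ * x * r s)
  have hL : ∀ x u, hh (x * u) = D x (u : G ⧸ H) + hh u := by
    intro x u
    have h1 : ((x * u : G) : G ⧸ H) = x • (u : G ⧸ H) := rfl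
    have h2 : (r (x • (u : G ⧸ H)))⁻¹ * (x * u) =
        ((r (x • (u : G ⧸ H)))⁻¹ * x * r (u : G ⧸ H)) * ((r (u : G ⧸ H))⁻¹ * u) := by group
    have h3 : (r (x • (u : G ⧸ H)))⁻¹ * (x * u) ∈ H := by
      have := hr (x * u)
      rwa [h1] at this
    have h4 : (r (x • (u : G ⧸ H)))⁻¹ * x * r (u : G ⧸ H) ∈ H := by
      rw [h2] at h3
      exact (Subgroup.mul_mem_cancel_right H (hr u)).mp h3
    simp only [hh, D, h1]
    rw [h2, hψadd _ _ h4 (hr u)]
  have habs : ∀ x, ∃ M, ∀ u, |hh (x * u) - hh u| ≤ M := by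
    intro x
    refine ⟨∑ s, |D x s|, fun u => ?_⟩
    rw [hL x u, add_sub_cancel_right]
    exact Finset.single_le_sum (f := fun s => |D x s|) (fun _ _ => abs_nonneg _)
      (Finset.mem_univ _)
  have hε : ψ' (g ^ m) ≠ 0 := by
    simp only [ψ', dif_pos hgm]
    intro h
    apply hg
    have : ψ ⟨g ^ m, hgm⟩ = Multiplicative.ofAdd 0 := by
      rw [← h]; rfl
    simpa using this
  have hm0 : (m : ℝ) ≠ 0 := by exact_mod_cast hm.ne'
  let h0 : G → ℝ := fun u => (∑ j ∈ Finset.range m, hh (u * g ^ j)) / m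
  have habs0 : ∀ x, ∃ M, ∀ u, |h0 (x * u) - h0 u| ≤ M := by
    intro x
    obtain ⟨M, hM⟩ := habs x
    refine ⟨M, fun u => ?_⟩
    have h1 : h0 (x * u) - h0 u =
        (∑ j ∈ Finset.range m, (hh (x * (u * g ^ j)) - hh (u * g ^ j))) / m := by
      simp only [h0, Finset.sum_sub_distrib, sub_div, mul_assoc]
    rw [h1, abs_div, div_le_iff₀ (by positivity)]
    refine (Finset.abs_sum_le_sum_abs _ _).trans ?_
    have h2 := Finset.sum_le_card_nsmul (Finset.range m)
      (fun j => |hh (x * (u * g ^ j)) - hh (u * g ^ j)|) M (fun j _ => hM _)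
    rw [Finset.card_range, nsmul_eq_mul] at h2
    rw [abs_of_pos (by positivity : (0 : ℝ) < m)]
    linarith
  have h0g : ∀ u, h0 (u * g) = h0 u + ψ' (g ^ m) / m := by
    intro u
    have h1 : ∑ j ∈ Finset.range m, hh (u * g * g ^ j) =
        ∑ j ∈ Finset.range m, hh (u * g ^ (j + 1)) := by
      refine Finset.sum_congr rfl (fun j _ => ?_)
      rw [pow_succ', mul_assoc]
    have h2 := Finset.sum_range_succ' (fun j => hh (u * g ^ j)) m
    have h3 := Finset.sum_range_succ (fun j => hh (u * g ^ j)) m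
    have h4 := hR u (g ^ m) hgm
    simp only [pow_zero, mul_one] at h2
    simp only [h0]
    rw [h1, ← add_div]
    congr 1
    linarith
  have hR0 : ∀ u a, a ∈ H → a * g = g * a → h0 (u * a) = h0 u + ψ' a := by
    intro u a ha hc
    have h1 : ∀ j : ℕ, hh (u * a * g ^ j) = hh (u * g ^ j) + ψ' a := by
      intro j
      have hcj : Commute a (g ^ j) := (show Commute a g from hc).pow_right j
      rw [mul_assoc, hcj.eq, ← mul_assoc, hR _ _ ha]
    simp only [h0, h1, Finset.sum_add_distrib, Finset.sum_const, Finset.card_range,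
      nsmul_eq_mul, add_div]
    rw [mul_div_cancel_left₀ _ hm0]
  let Zg := Subgroup.centralizer ({g} : Set G)
  let A' : Subgroup Zg := H.subgroupOf Zg
  have : Fintype (Zg ⧸ A') := Subgroup.fintypeQuotientOfFiniteIndex
  have hcard : (Fintype.card (Zg ⧸ A') : ℝ) ≠ 0 := by
    have : 0 < Fintype.card (Zg ⧸ A') := Fintype.card_pos
    exact_mod_cast this.ne'
  let μ : (Zg → ℝ) → ℝ := fun f => (∑ s : Zg ⧸ A', f s.out) / Fintype.card (Zg ⧸ A')
  refine averaging_criterion g h0 (ψ' (g ^ m) / m) (div_ne_zero hε hm0) habs0 h0g μ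
    ?_ ?_ ?_ ?_ ?_
  · intro f k _ _
    simp only [μ, Pi.add_apply, Finset.sum_add_distrib, add_div]
  · intro c f _
    simp only [μ, Pi.smul_apply, smul_eq_mul, ← Finset.mul_sum, mul_div_assoc]
  · intro f _ hf
    exact div_nonneg (Finset.sum_nonneg (fun s _ => hf _)) (Nat.cast_nonneg _)
  · simp only [μ, Finset.sum_const, Finset.card_univ, nsmul_eq_mul, mul_one]
    exact div_self hcard
  · intro u w
    simp only [μ]
    congr 1
    let f : Zg → ℝ := fun z => h0 (u * (z : G)) - h0 (z : G)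
    have hf : ∀ (z a : Zg), a ∈ A' → f (z * a) = f z := by
      intro z a ha
      have ha' : (a : G) ∈ H := Subgroup.mem_subgroupOf.mp ha
      have hac : (a : G) * g = g * a := (mem_cent_iff g a).mp a.2
      simp only [f, Subgroup.coe_mul]
      rw [← mul_assoc, hR0 _ _ ha' hac, hR0 _ _ ha' hac]
      ring
    have hstep : ∀ s : Zg ⧸ A', f (w * s.out) = f ((w • s).out) := by
      intro s
      have h1 : ((w * s.out : Zg) : Zg ⧸ A') = w • s := by
        have : ((s.out : Zg) : Zg ⧸ A') = s := QuotientGroup.out_eq' s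
        conv_rhs => rw [← this]
        rfl
      have h2 : (((w • s).out : Zg) : Zg ⧸ A') = ((w * s.out : Zg) : Zg ⧸ A') := by
        rw [h1]; exact QuotientGroup.out_eq' _
      have h3 : ((w • s).out)⁻¹ * (w * s.out) ∈ A' := QuotientGroup.eq.mp h2
      have h4 := hf ((w • s).out) _ h3
      rw [mul_inv_cancel_left] at h4
      exact h4
    calc ∑ s : Zg ⧸ A', f (w * s.out) = ∑ s : Zg ⧸ A', f ((w • s).out) :=
          Finset.sum_congr rfl (fun s _ => hstep s)
      _ = ∑ s : Zg ⧸ A', f s.out :=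
          Equiv.sum_comp (MulAction.toPerm w) (fun s : Zg ⧸ A' => f s.out)

end Vale.Agent.P184.HH
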