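import Vale.Agent.P184.HH.Classes

namespace Vale.Agent.P184

open scoped BigOperators

/-- Averaging step: a function with bounded left variation which is shifted by constants under
right translation by the elements of `H` commuting with `g`, and which separates `g ^ m` from `1`,
produces a height function for `g`. -/
theorem HasHeight.of_finiteIndex_aux {G : Type*} [Group G] (H : Subgroup G) [H.FiniteIndex] (g : G)
    (m : ℕ) (h' : G → ℝ)
    (hb : ∀ x, ∃ M, ∀ u, |h' (x * u) - h' u| ≤ M)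
    (hz : ∀ z ∈ H, z * g = g * z → ∀ u v, h' (u * z) - h' u = h' (v * z) - h' v)
    (hgm : g ^ m ∈ H) (hne : h' (g ^ m) ≠ h' 1) : HasHeight g := by
  classical
  have : Fintype (G ⧸ H) := Subgroup.fintypeQuotientOfFiniteIndex
  let P : G ⧸ H → Prop := fun Q => ∃ z : G, z * g = g * z ∧ (z : G ⧸ H) = Q
  let S : Finset (G ⧸ H) := Finset.univ.filter P
  let s : G ⧸ H → G := fun Q => if hQ : P Q then hQ.choose else 1
  have hmem : ∀ Q, Q ∈ S ↔ P Q := fun Q => by simp [S]
  have hs1 : ∀ Q ∈ S, s Q * g = g * s Q := by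
    intro Q hQ
    have hP : P Q := (hmem Q).mp hQ
    simp only [s, dif_pos hP]
    exact hP.choose_spec.1
  have hs2 : ∀ Q ∈ S, ((s Q : G) : G ⧸ H) = Q := by
    intro Q hQ
    have hP : P Q := (hmem Q).mp hQ
    simp only [s, dif_pos hP]
    exact hP.choose_spec.2
  have hsm : ∀ w : G, w * g = g * w → ∀ Q ∈ S, w • Q ∈ S := by
    intro w hw Q hQ
    rw [hmem]
    refine ⟨w * s Q, ?_, ?_⟩
    · rw [mul_assoc, hs1 Q hQ, ← mul_assoc, hw, mul_assoc]
    · have : ((w * s Q : G) : G ⧸ H) = w • ((s Q : G) : G ⧸ H) := rfl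
      rw [this, hs2 Q hQ]
  let h2 : G → ℝ := fun u => ∑ Q ∈ S, h' (u * s Q)
  have hinv : ∀ w : G, w * g = g * w → w⁻¹ * g = g * w⁻¹ := by
    intro w hw
    have : Commute w g := hw
    exact this.inv_left.eq
  have hre : ∀ w : G, w * g = g * w → ∀ u, h2 u = ∑ Q ∈ S, h' (u * s (w • Q)) := by
    intro w hw u
    symm
    refine Finset.sum_nbij' (fun Q => w • Q) (fun Q => w⁻¹ • Q) (hsm w hw) (hsm w⁻¹ (hinv w hw))
      ?_ ?_ ?_
    · intro Q _
      simp
    · intro Q _
      simp
    · intro Q _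
      rfl
  have hshift : ∀ w : G, w * g = g * w → ∀ u v, h2 (u * w) - h2 u = h2 (v * w) - h2 v := by
    intro w hw u v
    rw [hre w hw u, hre w hw v]
    simp only [h2]
    rw [← Finset.sum_sub_distrib, ← Finset.sum_sub_distrib]
    refine Finset.sum_congr rfl (fun Q hQ => ?_)
    have hwQ := hsm w hw Q hQ
    have hk1 : (s (w • Q))⁻¹ * (w * s Q) ∈ H := by
      apply QuotientGroup.eq.mp
      rw [hs2 _ hwQ]
      have : ((w * s Q : G) : G ⧸ H) = w • ((s Q : G) : G ⧸ H) := rfl
      rw [this, hs2 Q hQ]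
    have hk2 : ((s (w • Q))⁻¹ * (w * s Q)) * g = g * ((s (w • Q))⁻¹ * (w * s Q)) := by
      have c1 : Commute (s (w • Q)) g := hs1 _ hwQ
      have c2 : Commute w g := hw
      have c3 : Commute (s Q) g := hs1 Q hQ
      exact (c1.inv_left.mul_left (c2.mul_left c3)).eq
    have := hz _ hk1 hk2 (u * s (w • Q)) (v * s (w • Q))
    have e1 : ∀ t : G, t * s (w • Q) * ((s (w • Q))⁻¹ * (w * s Q)) = t * w * s Q := by
      intro t
      group
    rw [e1, e1] at this
    exact this
  refine ⟨h2, ?_, fun z hzc u v => hshift z hzc u v, ?_⟩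
  · intro x
    obtain ⟨M, hM⟩ := hb x
    refine ⟨S.card * M, fun u => ?_⟩
    simp only [h2]
    rw [← Finset.sum_sub_distrib]
    refine (Finset.abs_sum_le_sum_abs _ _).trans ?_
    have := Finset.sum_le_card_nsmul S (fun Q => |h' (x * u * s Q) - h' (u * s Q)|) M
      (fun Q _ => by
        have := hM (u * s Q)
        rwa [← mul_assoc] at this)
    rwa [nsmul_eq_mul] at this
  · -- non vanishing
    have hpow : ∀ j : ℕ, h2 (g ^ j) - h2 1 = j * (h2 g - h2 1) := by
      intro j
      induction j with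
      | zero => simp
      | succ j ih =>
        have := hshift g rfl (g ^ j) 1
        rw [one_mul, ← pow_succ] at this
        push_cast
        linarith
    have hS : (((1 : G) : G ⧸ H)) ∈ S := by
      rw [hmem]
      exact ⟨1, by simp, rfl⟩
    have hcomm : (g ^ m) * g = g * (g ^ m) := by
      rw [← pow_succ, ← pow_succ']
    have hsum : h2 (g ^ m) - h2 1 = S.card * (h' (g ^ m) - h' 1) := by
      simp only [h2]
      rw [← Finset.sum_sub_distrib]
      have : ∀ Q ∈ S, h' (g ^ m * s Q) - h' (1 * s Q) = h' (g ^ m) - h' 1 := by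
        intro Q hQ
        have c3 : Commute (s Q) g := hs1 Q hQ
        have c4 : g ^ m * s Q = s Q * g ^ m := (c3.pow_right m).eq.symm
        have := hz _ hgm hcomm (s Q) 1
        rw [c4, one_mul]
        rw [one_mul] at this
        exact this
      rw [Finset.sum_congr rfl this, Finset.sum_const, nsmul_eq_mul]
    intro hcon
    have h0 := hpow m
    rw [hsum, hcon, sub_self, mul_zero] at h0
    have hc : (S.card : ℝ) ≠ 0 := by
      have : 0 < S.card := Finset.card_pos.mpr ⟨_, hS⟩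
      exact_mod_cast this.ne'
    rcases mul_eq_zero.mp h0 with h | h
    · exact hc h
    · exact hne (by linarith)

/-- Height functions pass to finite index overgroups.

Proof.  Let `h` be a height function on `H` for `g ^ m`.  Let `r = Quotient.out : G ⧸ H → G`,
`p u = (r (u H))⁻¹ * u ∈ H`; then `p (u * k) = p u * k` for `k ∈ H` and `p (x * u) = c * p u` with
`c = (r (x u H))⁻¹ * x * r (u H)` depending only on `x` and the coset `u H` (finitely many values),
so `h' = h ∘ p` has bounded variation under left translations of `G` (as in `HasHeight.transfer`),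
and for `z ∈ H` commuting with `g ^ m` the difference `h' (u * z) - h' u =: lam z` does not depend
on `u`.  Then sum over the cosets of `H` meeting the centralizer of `g`
(`HasHeight.of_finiteIndex_aux`). -/
theorem HasHeight.of_finiteIndex {G : Type*} [Group G] (H : Subgroup G) [H.FiniteIndex] (g : G)
    (m : ℕ) (hm : 0 < m) (hgm : g ^ m ∈ H) (hh : HasHeight (⟨g ^ m, hgm⟩ : H)) :
    HasHeight g := by
  classical
  obtain ⟨h, hb, hz, hg⟩ := hh
  have : Fintype (G ⧸ H) := Subgroup.fintypeQuotientOfFiniteIndex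
  let r : G ⧸ H → G := Quotient.out
  have hr : ∀ u : G, (r (u : G ⧸ H))⁻¹ * u ∈ H := fun u =>
    QuotientGroup.eq.mp (QuotientGroup.out_eq' (u : G ⧸ H))
  let p : G → H := fun u => ⟨(r (u : G ⧸ H))⁻¹ * u, hr u⟩
  have hp : ∀ (u : G) (k : H), p (u * k) = p u * k := by
    intro u k
    have h1 : ((u * k : G) : G ⧸ H) = (u : G ⧸ H) := QuotientGroup.mk_mul_of_mem u k.2
    apply Subtype.ext
    simp only [p, h1, Subgroup.coe_mul]
    rw [mul_assoc]
  have hc : ∀ (x u : G), (r (x • (u : G ⧸ H)))⁻¹ * x * r (u : G ⧸ H) ∈ H := by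
    intro x u
    have h1 : ((x * u : G) : G ⧸ H) = x • (u : G ⧸ H) := rfl
    have h2 : (r (x • (u : G ⧸ H)))⁻¹ * (x * u) =
        ((r (x • (u : G ⧸ H)))⁻¹ * x * r (u : G ⧸ H)) * ((r (u : G ⧸ H))⁻¹ * u) := by group
    have h3 : (r (x • (u : G ⧸ H)))⁻¹ * (x * u) ∈ H := by
      have := hr (x * u)
      rwa [h1] at this
    rw [h2] at h3
    exact (Subgroup.mul_mem_cancel_right H (hr u)).mp h3
  have hcQ : ∀ (x : G) (Q : G ⧸ H), (r (x • Q))⁻¹ * x * r Q ∈ H := by
    intro x Q
    obtain ⟨u, rfl⟩ := QuotientGroup.mk_surjective Q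
    exact hc x u
  have hpx : ∀ (x u : G), p (x * u) = ⟨_, hcQ x (u : G ⧸ H)⟩ * p u := by
    intro x u
    have h1 : ((x * u : G) : G ⧸ H) = x • (u : G ⧸ H) := rfl
    apply Subtype.ext
    simp only [p, h1, Subgroup.coe_mul]
    group
  choose M hM using hb
  refine HasHeight.of_finiteIndex_aux H g m (fun u => h (p u)) ?_ ?_ hgm ?_
  · intro x
    refine ⟨∑ Q : G ⧸ H, |M ⟨_, hcQ x Q⟩|, fun u => ?_⟩
    have h1 := hM ⟨_, hcQ x (u : G ⧸ H)⟩ (p u)
    rw [← hpx] at h1
    refine h1.trans ((le_abs_self _).trans ?_)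
    exact Finset.single_le_sum (f := fun Q : G ⧸ H => |M ⟨_, hcQ x Q⟩|)
      (fun _ _ => abs_nonneg _) (Finset.mem_univ _)
  · intro z hzH hzc u v
    have c1 : Commute z g := hzc
    have h1 : (⟨z, hzH⟩ : H) * ⟨g ^ m, hgm⟩ = ⟨g ^ m, hgm⟩ * ⟨z, hzH⟩ :=
      Subtype.ext (c1.pow_right m).eq
    have h2 := hz ⟨z, hzH⟩ h1 (p u) (p v)
    have e1 := hp u ⟨z, hzH⟩
    have e2 := hp v ⟨z, hzH⟩
    simp only at e1 e2
    change h (p (u * z)) - h (p u) = h (p (v * z)) - h (p v)
    rw [e1, e2]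
    exact h2
  · have e1 := hp 1 ⟨g ^ m, hgm⟩
    simp only [one_mul] at e1
    change h (p (g ^ m)) ≠ h (p 1)
    rw [e1]
    have h2 := hz ⟨g ^ m, hgm⟩ rfl (p 1) 1
    rw [one_mul] at h2
    intro h3
    apply hg
    linarith

theorem AllHeight.of_finiteIndex {G : Type*} [Group G] (H : Subgroup G) [H.FiniteIndex]
    (h : AllHeight H) : AllHeight G := by
  intro g hg
  obtain ⟨m, hm, -, hgm⟩ := Subgroup.exists_pow_mem_of_index_ne_zero (H := H)
    Subgroup.FiniteIndex.index_ne_zero g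
  refine HasHeight.of_finiteIndex H g m hm hgm (h _ ?_)
  intro hfo
  apply hg
  obtain ⟨k, hk, hk1⟩ := (isOfFinOrder_iff_pow_eq_one).mp hfo
  rw [isOfFinOrder_iff_pow_eq_one]
  refine ⟨m * k, Nat.mul_pos hm hk, ?_⟩
  have := congrArg (Subtype.val) hk1
  simpa [pow_mul] using this

end Vale.Agent.P184
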