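import Vale.Agent.P184.HH.Classes
import Vale.Agent.P184.HH.CatZero
import Vale.Agent.P184.RH.All

namespace Vale.Agent.P184

open scoped Pointwise

theorem HasHeight.not_isOfFinOrder {G : Type*} [Group G] {g : G} (H : HasHeight g) :
    ¬ IsOfFinOrder g := by
  obtain ⟨h, _, hz, hg⟩ := H
  intro hfo
  obtain ⟨n, hn, hn1⟩ := (isOfFinOrder_iff_pow_eq_one).mp hfo
  have key : ∀ k : ℕ, h (g ^ k) = h 1 + k * (h g - h 1) := by
    intro k
    induction k with
    | zero => simp
    | succ k ih =>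
      have := hz g rfl (g ^ k) 1
      rw [one_mul, ← pow_succ] at this
      push_cast
      linarith
  have h1 := key n
  rw [hn1] at h1
  have hn' : (0 : ℝ) < n := by exact_mod_cast hn
  have h2 : (n : ℝ) * (h g - h 1) = 0 := by linarith
  rcases mul_eq_zero.mp h2 with h3 | h3
  · linarith
  · exact hg (by linarith)

/-- A finite set meeting all classes of elements of finite order. -/
lemma finTor_of_finset {G : Type*} [Group G] (S : Finset G)
    (h : ∀ g : G, IsOfFinOrder g → ∃ s : G, s⁻¹ * g * s ∈ S) : FinTor G := by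
  classical
  refine (S.finite_toSet.image ConjClasses.mk).subset ?_
  intro C hC
  obtain ⟨g, rfl⟩ := ConjClasses.mk_surjective C
  obtain ⟨s, hs⟩ := h g (hC g ConjClasses.mem_carrier_mk)
  refine ⟨s⁻¹ * g * s, hs, ?_⟩
  exact ConjClasses.mk_eq_mk_iff_isConj.mpr (isConj_iff.mpr ⟨s, by group⟩)

theorem rfrs_members {G : Type*} [Group G] (hG : IsRFRS G) : AllHeight G ∧ FinTor G := by
  classical
  have h1 : ∀ g : G, g ≠ 1 → HasHeight g := fun g hg => HH.rfrs_height hG g hg
  refine ⟨fun g hg => h1 g (by rintro rfl; exact hg IsOfFinOrder.one), ?_⟩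
  refine finTor_of_finset {1} (fun g hg => ⟨1, ?_⟩)
  by_contra hne
  have : g ≠ 1 := by
    intro h
    apply hne
    simp [h]
  exact (h1 g this).not_isOfFinOrder hg

theorem CN_members {G X : Type*} [Group G] [PseudoMetricSpace X] [MulAction G X]
    (hgeo : Geom G X) (hCN : CN X) : AllHeight G ∧ FinTor G := by
  obtain ⟨hiso, x₀, R₀, hprop, hcob⟩ := hgeo
  obtain ⟨S, hS⟩ := HH.CN_dichotomy hiso hCN x₀ hprop R₀ hcob
  refine ⟨fun g hg => ?_, finTor_of_finset S (fun g hg => ?_)⟩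
  · rcases hS g with ⟨δ, hδ0, hδ⟩ | ⟨hfo, _⟩
    · exact HH.CN_criterion hiso hCN g δ hδ0 hδ x₀
    · exact absurd hfo hg
  · rcases hS g with ⟨δ, hδ0, hδ⟩ | ⟨_, hs⟩
    · exact absurd hg (HH.CN_criterion hiso hCN g δ hδ0 hδ x₀).not_isOfFinOrder
    · exact hs

theorem cuspUniform_of_geom {G X : Type*} [Group G] [PseudoMetricSpace X] [MulAction G X]
    (hgeo : Geom G X) (h4 : Hyp4 X) (hmid : Mid X) :
    ∃ (δ μ σ κ R₀ : ℝ) (x₀ : X), CuspUniform G X ∅ δ μ σ κ R₀ x₀ := by
  obtain ⟨hiso, x₀, R₀, hprop, hcob⟩ := hgeo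
  obtain ⟨δ, h4⟩ := h4
  obtain ⟨μ, hmid⟩ := hmid
  refine ⟨δ, μ, 2 * μ + 1, 0, R₀, x₀, ?_⟩
  exact
    { isom := hiso
      hyp := h4
      mid := hmid
      proper := hprop
      inv := fun _ B hB => absurd hB (Set.notMem_empty B)
      cover := fun y => Or.inl (hcob y)
      sep_pos := by linarith
      sep := fun B hB => absurd hB (Set.notMem_empty B)
      qconv := fun B hB => absurd hB (Set.notMem_empty B)
      locfin := fun R => by simp
      bddint := fun B hB => absurd hB (Set.notMem_empty B) }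

theorem hyp_members {G X : Type*} [Group G] [PseudoMetricSpace X] [MulAction G X]
    (hgeo : Geom G X) (h4 : Hyp4 X) (hmid : Mid X) : AllHeight G ∧ FinTor G := by
  obtain ⟨δ, μ, σ, κ, R₀, x₀, hC⟩ := cuspUniform_of_geom hgeo h4 hmid
  exact ⟨hC.allHeight (fun B hB => absurd hB (Set.notMem_empty B)),
    hC.finTor (fun B hB => absurd hB (Set.notMem_empty B))⟩

end Vale.Agent.P184
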