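import Vale.Agent.P184.HH.Criteria

namespace Vale.Agent.P184.HH

open scoped BigOperators

variable {G : Type*} [Group G] {q : ℕ}

lemma subadd_pow {l : G → ℝ} (hl : ∀ x y, l (x * y) ≤ l x + l y) (x : G)
    (n : ℕ) : l (x ^ (n + 1)) ≤ (n + 1 : ℝ) * l x := by
  induction n with
  | zero => simp
  | succ n ih =>
    rw [pow_succ]
    have := hl (x ^ (n + 1)) x
    push_cast
    linarith

/-- A power map which is a homomorphism into the cyclic group generated by a central element of
finite index. -/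
lemma exists_pow_hom {Z : Type*} [Group Z] (c : Z) (hc : ∀ z, z * c = c * z)
    [hfi : (Subgroup.zpowers c).FiniteIndex] :
    ∃ M : ℕ, 0 < M ∧ (∀ z w : Z, (z * w) ^ M = z ^ M * w ^ M) ∧
      ∀ z : Z, z ^ M ∈ Subgroup.zpowers c := by
  classical
  have hle : Subgroup.zpowers c ≤ Subgroup.center Z := by
    rw [Subgroup.zpowers_le]
    rw [Subgroup.mem_center_iff]
    intro z
    exact hc z
  have hfc : (Subgroup.center Z).FiniteIndex := Subgroup.finiteIndex_of_le hle
  set m := (Subgroup.center Z).index with hm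
  have hm0 : 0 < m := Nat.pos_of_ne_zero hfc.index_ne_zero
  let T := MonoidHom.transferCenterPow Z
  let C' : Subgroup (Subgroup.center Z) := (Subgroup.zpowers c).subgroupOf (Subgroup.center Z)
  have hfi' : C'.FiniteIndex := inferInstance
  set k := C'.index with hk
  have hk0 : 0 < k := Nat.pos_of_ne_zero hfi'.index_ne_zero
  refine ⟨m * k, Nat.mul_pos hm0 hk0, ?_, ?_⟩
  · intro z w
    have hcomm : Commute (T z) (T w) :=
      Subtype.ext ((Subgroup.mem_center_iff.mp (T w).2 (T z : Z)))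
    have h1 : (T (z * w)) ^ k = (T z) ^ k * (T w) ^ k := by
      rw [map_mul, hcomm.mul_pow]
    have h2 := congrArg (Subtype.val) h1
    rw [pow_mul, pow_mul, pow_mul]
    exact h2
  · intro z
    have h1 : (T z) ^ k ∈ C' := C'.pow_index_mem (T z)
    have h2 : (((T z) ^ k : Subgroup.center Z) : Z) ∈ Subgroup.zpowers c :=
      Subgroup.mem_subgroupOf.mp h1
    rw [pow_mul]
    exact h2

/-- Undistorted elements whose centralizer is virtually the cyclic group they generate. -/
theorem virtually_cyclic_criterion (l : G → ℝ)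
    (hl : ∀ x y, l (x * y) ≤ l x + l y) (hl0 : ∀ x, 0 ≤ l x) (g : G) (ε : ℝ) (hε : 0 < ε)
    (hund : ∀ n : ℕ, ε * n ≤ l (g ^ n)) (F : Set G) (hF : F.Finite)
    (hcov : ∀ z, z * g = g * z → ∃ s ∈ F, ∃ j : ℤ, z = s * g ^ j) :
    HasHeight g := by
  classical
  let Z := Subgroup.centralizer ({g} : Set G)
  have hgZ : g ∈ Z := (mem_cent_iff g g).mpr rfl
  let c : Z := ⟨g, hgZ⟩
  have hc : ∀ z : Z, z * c = c * z := fun z => Subtype.ext ((mem_cent_iff g z).mp z.2)
  have hcz : ∀ j : ℤ, ((c ^ j : Z) : G) = g ^ j := fun j => by simp [c]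
  -- the cyclic group has finite index
  have hfin : Finite (Z ⧸ Subgroup.zpowers c) := by
    have : Finite F := hF
    let f : F → Z ⧸ Subgroup.zpowers c := fun s =>
      if hs : (s : G) ∈ Z then QuotientGroup.mk ⟨s, hs⟩ else QuotientGroup.mk 1
    refine Finite.of_surjective f ?_
    intro Q
    obtain ⟨z, rfl⟩ := QuotientGroup.mk_surjective Q
    obtain ⟨s, hsF, j, hj⟩ := hcov z ((mem_cent_iff g z).mp z.2)
    have hs : s ∈ Z := by
      have h1 : s = z * (g ^ j)⁻¹ := by rw [hj]; group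
      rw [h1]
      exact Z.mul_mem z.2 (Z.inv_mem (Z.zpow_mem hgZ j))
    refine ⟨⟨s, hsF⟩, ?_⟩
    simp only [f, dif_pos hs]
    rw [QuotientGroup.eq]
    refine Subgroup.mem_zpowers_iff.mpr ⟨j, ?_⟩
    apply Subtype.ext
    rw [hcz]
    simp only [Subgroup.coe_mul, Subgroup.coe_inv]
    rw [hj]
    group
  have hfi : (Subgroup.zpowers c).FiniteIndex := Subgroup.finiteIndex_of_finite_quotient
  obtain ⟨M, hM0, hmul, hmem⟩ := exists_pow_hom c hc
  -- the element has infinite order
  have hpow1 : ∀ n : ℕ, 0 < n → g ^ n ≠ 1 := by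
    intro n hn h1
    obtain ⟨k, hk⟩ := exists_nat_gt (l 1 / (ε * n))
    have hpos : 0 < ε * n := mul_pos hε (by exact_mod_cast hn)
    have h2 := hund (n * k)
    rw [pow_mul, h1, one_pow] at h2
    rw [div_lt_iff₀ hpos] at hk
    push_cast at h2
    nlinarith
  have hinj : ∀ a b : ℤ, g ^ a = g ^ b → a = b := by
    have key : ∀ a b : ℤ, a < b → g ^ a ≠ g ^ b := by
      intro a b hab h
      have h1 : g ^ (b - a) = 1 := by rw [zpow_sub, h, mul_inv_cancel]
      obtain ⟨n, hn⟩ := Int.eq_ofNat_of_zero_le (sub_nonneg.mpr hab.le)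
      rw [hn, zpow_natCast] at h1
      exact hpow1 n (by omega) h1
    intro a b h
    rcases lt_trichotomy a b with hab | hab | hab
    · exact absurd h (key a b hab)
    · exact hab
    · exact absurd h.symm (key b a hab)
  choose ν hν using fun z : Z => Subgroup.mem_zpowers_iff.mp (hmem z)
  have hν' : ∀ z : Z, g ^ (ν z) = (z : G) ^ M := by
    intro z
    have := congrArg Subtype.val (hν z)
    rw [hcz] at this
    simpa using this
  have hνadd : ∀ z w : Z, ν (z * w) = ν z + ν w := by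
    intro z w
    apply hinj
    rw [hν', zpow_add, hν', hν']
    have := congrArg Subtype.val (hmul z w)
    simpa using this
  have hMR : (0 : ℝ) < M := by exact_mod_cast hM0
  let φ : G → ℝ := fun y => if hy : y ∈ Z then ε * ν ⟨y, hy⟩ / M else 0
  refine centralizer_criterion l hl g φ ?_ ?_ ?_
  · intro z w hz hw
    have hz' : z ∈ Z := (mem_cent_iff g z).mpr hz
    have hw' : w ∈ Z := (mem_cent_iff g w).mpr hw
    simp only [φ, dif_pos hz', dif_pos hw', dif_pos (Z.mul_mem hz' hw')]
    have : (⟨z * w, Z.mul_mem hz' hw'⟩ : Z) = ⟨z, hz'⟩ * ⟨w, hw'⟩ := rfl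
    rw [this, hνadd]
    push_cast
    ring
  · intro z hz
    have hz' : z ∈ Z := (mem_cent_iff g z).mpr hz
    simp only [φ, dif_pos hz']
    rw [div_le_iff₀ hMR]
    rcases le_or_gt 0 (ν ⟨z, hz'⟩) with hn | hn
    · obtain ⟨n, hn'⟩ := Int.eq_ofNat_of_zero_le hn
      have h1 := hν' ⟨z, hz'⟩
      rw [hn', zpow_natCast] at h1
      have h2 := hund n
      rw [h1] at h2
      obtain ⟨M', rfl⟩ : ∃ M', M = M' + 1 := ⟨M - 1, by omega⟩
      have h3 := subadd_pow hl z M'
      rw [hn']
      push_cast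
      push_cast at h2 h3
      change ε * n ≤ l (z ^ (M' + 1)) at h2
      linarith
    · have h1 : (ν ⟨z, hz'⟩ : ℝ) < 0 := by exact_mod_cast hn
      have h2 : 0 ≤ l z * M := mul_nonneg (hl0 z) hMR.le
      nlinarith
  · simp only [φ, dif_pos hgZ]
    have h1 : ν ⟨g, hgZ⟩ = M := by
      apply hinj
      rw [hν', zpow_natCast]
    rw [h1]
    have : ε * ((M : ℤ) : ℝ) / M = ε := by
      push_cast
      field_simp
    rw [this]
    exact hε.ne'

end Vale.Agent.P184.HH
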